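import Mathlib

/-!
Overgroups of a subgroup whose coset graph is aperiodic off the base point.

`Letters f H`: for every letter `a` and every coset `H k`, either `H k` meets `H` while reading
`a, a, a, ...` or `a` fixes `H k`.
-/

namespace Vale.Agent.P329.R2.H989

/-- The part of the aperiodicity condition which concerns one-letter words. -/
def Letters {α G : Type*} [Group G] (f : α → G) (H : Subgroup G) : Prop :=
  ∀ (a : α) (k : G), (∃ j : ℕ, k * f a ^ j ∈ H) ∨ k * f a * k⁻¹ ∈ H

variable {α G : Type*} [Group G]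

/-- A letter outside the core of `M` forces `M = H · core M`. -/
theorem le_sup_core {f : α → G} {H M : Subgroup G} (hc : Letters f H) (hM : H ≤ M)
    {a : α} (ha : f a ∉ M.normalCore) : M ≤ H ⊔ M.normalCore := by
  -- powers of the letter in `M` lie in the core
  have hpow : ∀ i : ℤ, f a ^ i ∈ M → f a ^ i ∈ M.normalCore := by
    intro i hi
    change ∀ x : G, x * f a ^ i * x⁻¹ ∈ M
    intro x
    by_cases hx : x * f a * x⁻¹ ∈ M
    · have := M.zpow_mem hx i
      rwa [conj_zpow] at this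
    · rcases hc a x with ⟨j, hj⟩ | h
      · have h1 : x * f a ^ i * x⁻¹ = (x * f a ^ j) * f a ^ i * (x * f a ^ j)⁻¹ := by
          have hcomm : f a ^ j * f a ^ i * (f a ^ j)⁻¹ = f a ^ i := by
            have : Commute (f a ^ j) (f a ^ i) := (Commute.refl (f a)).pow_left j |>.zpow_right i
            rw [this.eq, mul_inv_cancel_right]
          calc x * f a ^ i * x⁻¹ = x * (f a ^ j * f a ^ i * (f a ^ j)⁻¹) * x⁻¹ := by rw [hcomm]
            _ = (x * f a ^ j) * f a ^ i * (x * f a ^ j)⁻¹ := by group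
        rw [h1]
        exact M.mul_mem (M.mul_mem (hM hj) hi) (M.inv_mem (hM hj))
      · exact absurd (hM h) hx
  -- a coset moved outside `M`
  have hk : ∃ k : G, k * f a * k⁻¹ ∉ M := by
    by_contra h
    push Not at h
    exact ha h
  obtain ⟨k, hk⟩ := hk
  have hmove : ∀ m ∈ M, ∃ j : ℕ, m * k * f a ^ j ∈ H := by
    intro m hm
    rcases hc a (m * k) with h | h
    · exact h
    · exfalso
      apply hk
      have h2 : k * f a * k⁻¹ = m⁻¹ * (m * k * f a * (m * k)⁻¹) * m := by group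
      rw [h2]
      exact M.mul_mem (M.mul_mem (M.inv_mem hm) (hM h)) hm
  obtain ⟨j0, hj0⟩ := hmove 1 M.one_mem
  rw [one_mul] at hj0
  intro m hm
  -- apply the last fact to `m * h0⁻¹` with `h0 = k * f a ^ j0`
  obtain ⟨j, hj⟩ := hmove m hm
  -- `m = (m k g^j) (g^(j0-j)) (k g^j0)⁻¹`
  have hfac : m = (m * k * f a ^ j) * f a ^ ((j0 : ℤ) - j) * (k * f a ^ j0)⁻¹ := by
    have e1 : f a ^ j * f a ^ ((j0 : ℤ) - j) = f a ^ j0 := by
      rw [← zpow_natCast, ← zpow_natCast, ← zpow_add]
      congr 1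
      omega
    calc m = m * k * (f a ^ j0) * (k * f a ^ j0)⁻¹ := by group
      _ = m * k * (f a ^ j * f a ^ ((j0 : ℤ) - j)) * (k * f a ^ j0)⁻¹ := by rw [e1]
      _ = _ := by group
  have hg : f a ^ ((j0 : ℤ) - j) ∈ M := by
    have : f a ^ ((j0 : ℤ) - j) = (m * k * f a ^ j)⁻¹ * m * (k * f a ^ j0) := by
      rw [eq_comm]
      nth_rewrite 2 [hfac]
      group
    rw [this]
    exact M.mul_mem (M.mul_mem (M.inv_mem (hM hj)) hm) (hM hj0)
  rw [hfac]
  exact (H ⊔ M.normalCore).mul_mem
    ((H ⊔ M.normalCore).mul_mem (Subgroup.mem_sup_left hj) (Subgroup.mem_sup_right (hpow _ hg)))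
    ((H ⊔ M.normalCore).inv_mem (Subgroup.mem_sup_left hj0))

/-- Every proper subgroup `M` containing `H` is `H N` with `N` normal in `G`. -/
theorem eq_sup_core {f : α → G} (hf : Subgroup.closure (Set.range f) = ⊤) {H M : Subgroup G}
    (hc : Letters f H) (hM : H ≤ M) (hM1 : M ≠ ⊤) : M = H ⊔ M.normalCore := by
  have ha : ∃ a, f a ∉ M.normalCore := by
    by_contra h
    push Not at h
    apply hM1
    rw [eq_top_iff, ← hf]
    refine (Subgroup.closure_le _).2 ?_
    rintro _ ⟨a, rfl⟩
    exact M.normalCore_le (h a)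
  obtain ⟨a, ha⟩ := ha
  exact le_antisymm (le_sup_core hc hM ha) (sup_le hM M.normalCore_le)

/-- In a simple group a proper `H` is a maximal subgroup. -/
theorem isCoatom [IsSimpleGroup G] {f : α → G} (hf : Subgroup.closure (Set.range f) = ⊤)
    {H : Subgroup G} (hc : Letters f H) (hH : H ≠ ⊤) : IsCoatom H := by
  refine ⟨hH, fun M hM => ?_⟩
  by_contra hM1
  have h := eq_sup_core hf hc hM.le hM1
  have hN : M.normalCore = ⊥ := by
    rcases (Subgroup.normalCore_normal M).eq_bot_or_eq_top with h | h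
    · exact h
    · exact absurd (top_le_iff.1 (h ▸ M.normalCore_le)) hM1
  rw [hN, sup_bot_eq] at h
  exact hM.ne h.symm

/-- Every letter outside the core of `H` moves, apart from fixed cosets, only the cosets of its
orbit through `H`, and it moves `H` itself. -/
theorem letter_cycle {f : α → G} {H : Subgroup G} (hc : Letters f H) {a : α}
    (ha : f a ∉ H.normalCore) :
    f a ∉ H ∧ ∀ k : G, k * f a * k⁻¹ ∈ H ∨ ∃ j : ℕ, k * f a ^ j ∈ H := by
  refine ⟨fun h => ha ?_, fun k => (hc a k).symm⟩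
  change ∀ x : G, x * f a * x⁻¹ ∈ H
  intro x
  rcases hc a x with ⟨j, hj⟩ | hx
  · have h1 : x * f a * x⁻¹ = (x * f a ^ j) * f a * (x * f a ^ j)⁻¹ := by
      have hcomm : f a ^ j * f a * (f a ^ j)⁻¹ = f a := by
        rw [← pow_succ, pow_succ', mul_inv_cancel_right]
      calc x * f a * x⁻¹ = x * (f a ^ j * f a * (f a ^ j)⁻¹) * x⁻¹ := by rw [hcomm]
        _ = _ := by group
    rw [h1]
    exact H.mul_mem (H.mul_mem hj h) (H.inv_mem hj)
  · exact hx

end Vale.Agent.P329.R2.H989
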