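import Vale.Agent.P329.R2.H874.Clean

/-! The certificate on triples of points, and a form of it which the kernel can check. -/

namespace Vale.Agent.P329.R2.H989

open Vale.Agent.P329 Vale.Agent.P329.H548 Vale.Agent.P329.R2.H874

section basic

variable {α X : Type} (act : α → Equiv.Perm X) (r : X)

/-- three runs off the root keep the level of a triple from rising -/
theorem triple_walk (c : X → X → X → ℕ)
    (h1 : ∀ a x y z, x ≠ y → y ≠ z → x ≠ r → y ≠ r → z ≠ r → act a x ≠ r → act a y ≠ r →
      act a z ≠ r → c (act a x) (act a y) (act a z) ≤ c x y z)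
    (w : List α) : ∀ x y z x' y' z', x ≠ y → y ≠ z → x ≠ r → y ≠ r → z ≠ r →
    run (dl act r) x w = some x' → run (dl act r) y w = some y' →
    run (dl act r) z w = some z' → c x' y' z' ≤ c x y z := by
  induction w with
  | nil =>
    intro x y z x' y' z' _ _ _ _ _ hx hy hz
    cases hx; cases hy; cases hz; exact le_rfl
  | cons a w ih =>
    intro x y z x' y' z' hxy hyz hxr hyr hzr hx hy hz
    obtain ⟨s, hs, hs'⟩ := run_cons_eq_some hx
    obtain ⟨t, ht, ht'⟩ := run_cons_eq_some hy
    obtain ⟨u, hu, hu'⟩ := run_cons_eq_some hz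
    rw [dl_some] at hs ht hu
    obtain ⟨rfl, hsr⟩ := hs
    obtain ⟨rfl, htr⟩ := ht
    obtain ⟨rfl, hur⟩ := hu
    have hne : act a x ≠ act a y := fun h => hxy ((act a).injective h)
    have hne' : act a y ≠ act a z := fun h => hyz ((act a).injective h)
    exact (ih _ _ _ _ _ _ hne hne' hsr htr hur hs' ht' hu').trans
      (h1 a x y z hxy hyz hxr hyr hzr hsr htr hur)

/-- **The certificate on triples of points.** -/
theorem noCyc_triples (c : X → X → X → ℕ) (ρ : ℕ → X → X → ℕ)
    (h1 : ∀ a x y z, x ≠ y → y ≠ z → x ≠ r → y ≠ r → z ≠ r → act a x ≠ r → act a y ≠ r →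
      act a z ≠ r → c (act a x) (act a y) (act a z) ≤ c x y z)
    (h2 : ∀ x y z, x ≠ y → y ≠ z → x ≠ r → y ≠ r → z ≠ r →
      ρ (c x y z) x y < ρ (c x y z) y z) : NoCyc (dl act r) := by
  intro z s n hn hs
  change run (dl act r) s (pw n z) = some s at hs
  by_cases hz : z = []
  · rw [hz]; rfl
  have hstep := cyc_step act r hn hs
  have hpn : pw n z ≠ [] := by
    obtain ⟨m, rfl⟩ : ∃ m, n = m + 1 := ⟨n - 1, by omega⟩
    rw [pw_succ]
    intro h
    exact hz (List.append_eq_nil_iff.1 h).1
  have hsr : s ≠ r := run_ne act r hpn hs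
  set f : ℕ → X := fun i => go act s (pw i z) with hf
  have f0 : f 0 = s := rfl
  have fr : ∀ i, f i ≠ r := by
    intro i
    cases i with
    | zero => exact hsr
    | succ i => exact run_ne act r hz (hstep i)
  have fn : f n = s := by
    change go act s (pw n z) = s
    exact run_go act r hs
  have fs : ∀ i, run (dl act r) (f i) z = some (f (i + 1)) := hstep
  have fg : ∀ i, f (i + 1) = go act (f i) z := fun i => (run_go act r (fs i)).symm
  by_cases h01 : f 1 = f 0
  · have := fs 0
    rw [zero_add, h01, f0] at this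
    exact this
  exfalso
  have hne : ∀ i, f i ≠ f (i + 1) := by
    intro i
    induction i with
    | zero => exact fun h => h01 h.symm
    | succ i ih =>
      intro h
      apply ih
      rw [fg i, fg (i + 1)] at h
      exact go_inj act z h
  have hanti : ∀ i, c (f (i + 1)) (f (i + 2)) (f (i + 3)) ≤ c (f i) (f (i + 1)) (f (i + 2)) :=
    fun i => triple_walk act r c h1 z _ _ _ _ _ _ (hne i) (hne (i + 1)) (fr i) (fr (i + 1))
      (fr (i + 2)) (fs i) (fs (i + 1)) (fs (i + 2))
  have hle : ∀ i j, i ≤ j → c (f j) (f (j + 1)) (f (j + 2)) ≤ c (f i) (f (i + 1)) (f (i + 2)) := by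
    intro i j hij
    induction j, hij using Nat.le_induction with
    | base => exact le_rfl
    | succ j _ ih => exact (hanti j).trans ih
  have fn1 : f (n + 1) = f 1 := by rw [fg n, fn, ← f0, ← fg 0]
  have fn2 : f (n + 2) = f 2 := by rw [fg (n + 1), fn1, ← fg 1]
  have hper : c (f n) (f (n + 1)) (f (n + 2)) = c (f 0) (f 1) (f 2) := by
    rw [fn2, fn1, fn, ← f0]
  have hconst : ∀ i, i ≤ n → c (f i) (f (i + 1)) (f (i + 2)) = c (f 0) (f 1) (f 2) := by
    intro i hi
    apply le_antisymm (hle 0 i (Nat.zero_le i))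
    rw [← hper]
    exact hle i n hi
  have hlt : ∀ i, i ≤ n → 0 < i → ρ (c (f 0) (f 1) (f 2)) (f 0) (f 1) <
      ρ (c (f 0) (f 1) (f 2)) (f i) (f (i + 1)) := by
    intro i
    induction i with
    | zero => intro _ h; omega
    | succ i ih =>
      intro hi _
      have h3 := h2 (f i) (f (i + 1)) (f (i + 2)) (hne i) (hne (i + 1)) (fr i) (fr (i + 1))
        (fr (i + 2))
      rw [hconst i (by omega)] at h3
      by_cases hi0 : i = 0
      · subst hi0; exact h3
      · exact (ih (by omega) (by omega)).trans h3
  have := hlt n le_rfl hn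
  rw [fn, fn1, f0] at this
  exact lt_irrefl _ this

end basic

/-! ### Tables packed into natural numbers -/

/-- the `i`-th byte of `T` -/
def dig (T i : ℕ) : ℕ := (T >>> (8 * i)) % 256

/-- one letter does not raise the level `l` -/
def stp (n r T C l x y z : ℕ) : Bool :=
  Nat.beq (dig T x) r || (Nat.beq (dig T y) r || (Nat.beq (dig T z) r ||
    Nat.ble (dig C (n * n * dig T x + n * dig T y + dig T z)) l))

/-- the conditions at one triple -/
def one (n r A B C R x y z : ℕ) : Bool :=
  Nat.beq x r || (Nat.beq y r || (Nat.beq z r || (Nat.beq x y || (Nat.beq y z ||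
    (Nat.ble (dig R (n * n * dig C (n * n * x + n * y + z) + n * x + y) + 1)
        (dig R (n * n * dig C (n * n * x + n * y + z) + n * y + z)) &&
      (stp n r A C (dig C (n * n * x + n * y + z)) x y z &&
        stp n r B C (dig C (n * n * x + n * y + z)) x y z))))))

/-- all numbers below `n` -/
def allb (p : ℕ → Bool) : ℕ → Bool
  | 0 => true
  | n + 1 => p n && allb p n

theorem allb_imp {p : ℕ → Bool} : ∀ {n : ℕ}, allb p n = true → ∀ i < n, p i = true
  | 0, _, i, hi => absurd hi (Nat.not_lt_zero i)
  | n + 1, h, i, hi => by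
    rw [allb, Bool.and_eq_true] at h
    rcases Nat.lt_succ_iff_lt_or_eq.1 hi with h' | h'
    · exact allb_imp h.2 i h'
    · rw [h']; exact h.1

/-- the whole check -/
def chk (n r A B C R : ℕ) : Bool :=
  allb (fun x => allb (fun y => allb (fun z => one n r A B C R x y z) n) n) n

theorem noCyc_of_chk {n : ℕ} (act : Bool → Equiv.Perm (Fin n)) (r : Fin n) (A B C R : ℕ)
    (hA : ∀ x, dig A x.val = (act true x).val) (hB : ∀ x, dig B x.val = (act false x).val)
    (h : chk n r.val A B C R = true) : NoCyc (dl act r) := by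
  have hv : ∀ {x y : Fin n}, x ≠ y → ¬ (Nat.beq x.val y.val = true) := fun h h' =>
    h (Fin.ext (Nat.eq_of_beq_eq_true h'))
  have h3 : ∀ x y z : Fin n, x ≠ y → y ≠ z → x ≠ r → y ≠ r → z ≠ r →
      dig R (n * n * dig C (n * n * x + n * y + z) + n * x + y) <
        dig R (n * n * dig C (n * n * x + n * y + z) + n * y + z) ∧
      stp n r A C (dig C (n * n * x + n * y + z)) x y z = true ∧
      stp n r B C (dig C (n * n * x + n * y + z)) x y z = true := by
    intro x y z hxy hyz hxr hyr hzr
    have h0 := allb_imp (allb_imp (allb_imp h x.val x.isLt) y.val y.isLt) z.val z.isLt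
    simp only [one, Bool.or_eq_true, Bool.and_eq_true, Nat.ble_eq] at h0
    rcases h0 with h | h | h | h | h | h
    · exact absurd h (hv hxr)
    · exact absurd h (hv hyr)
    · exact absurd h (hv hzr)
    · exact absurd h (hv hxy)
    · exact absurd h (hv hyz)
    · exact h
  refine noCyc_triples act r (fun x y z => dig C (n * n * x + n * y + z))
    (fun l x y => dig R (n * n * l + n * x + y)) ?_ ?_
  · intro a x y z hxy hyz hxr hyr hzr hax hay haz
    have h4 := (h3 x y z hxy hyz hxr hyr hzr).2
    cases a with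
    | true =>
      have h5 := h4.1
      simp only [stp, Bool.or_eq_true, Nat.ble_eq, hA] at h5
      rcases h5 with h | h | h | h
      · exact absurd h (hv hax)
      · exact absurd h (hv hay)
      · exact absurd h (hv haz)
      · exact h
    | false =>
      have h5 := h4.2
      simp only [stp, Bool.or_eq_true, Nat.ble_eq, hB] at h5
      rcases h5 with h | h | h | h
      · exact absurd h (hv hax)
      · exact absurd h (hv hay)
      · exact absurd h (hv haz)
      · exact h
  · intro x y z hxy hyz hxr hyr hzr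
    exact (h3 x y z hxy hyz hxr hyr hzr).1

end Vale.Agent.P329.R2.H989
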