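import Vale.Agent.P329.R2.H989.DatM11
import Vale.Agent.P329.R2.H989.DatM12

/-! The two Mathieu groups: order 7920 and sharply 4-transitive on 11 points, order 95040 and
sharply 5-transitive on 12 points -/

namespace Vale.Agent.P329.R2.H989

/-- `M_11`: the group is sharply 4-transitive on 11 points and has order 7920. -/
theorem m11_ident (f : Bool → Equiv.Perm (Fin 11))
    (h1 : ∀ i, f true i = (![2, 8, 4, 5, 1, 9, 0, 6, 3, 10, 7] : Fin 11 → Fin 11) i)
    (h2 : ∀ i, f false i = (![1, 8, 4, 7, 9, 3, 0, 10, 2, 5, 6] : Fin 11 → Fin 11) i) :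
    Nat.card (Subgroup.closure (Set.range f)) = 7920 ∧
    ∀ s t : Fin 4 → Fin 11, Function.Injective s → Function.Injective t →
      ∃! σ : Equiv.Perm (Fin 11), σ ∈ Subgroup.closure (Set.range f) ∧ ∀ i, σ (s i) = t i := by
  have hA : Rep 0x70a030600090105040802 (f true) := fun i => by rw [h1]; revert i; decide
  have hB : Rep 0x605020a00030907040801 (f false) := fun i => by rw [h2]; revert i; decide
  refine ⟨?_, fun s t => sharp_two (by norm_num) _ ?_ s t⟩
  · rw [card_closure m11Data (by norm_num) (by norm_num) (by norm_num) (by decide) f hA hB]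
    decide
  · exact sharp (m := 4) m11Data (by norm_num) (by decide) (by norm_num) (by decide) f hA hB

/-- `M_12`: the group is sharply 5-transitive on 12 points and has order 95040. -/
theorem m12_ident (f : Bool → Equiv.Perm (Fin 12))
    (h1 : ∀ i, f true i = (![5, 1, 7, 6, 11, 8, 10, 3, 2, 4, 9, 0] : Fin 12 → Fin 12) i)
    (h2 : ∀ i, f false i = (![5, 0, 10, 11, 9, 8, 3, 7, 2, 1, 6, 4] : Fin 12 → Fin 12) i) :
    Nat.card (Subgroup.closure (Set.range f)) = 95040 ∧
    ∀ s t : Fin 5 → Fin 12, Function.Injective s → Function.Injective t →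
      ∃! σ : Equiv.Perm (Fin 12), σ ∈ Subgroup.closure (Set.range f) ∧ ∀ i, σ (s i) = t i := by
  have hA : Rep 0x90402030a080b06070105 (f true) := fun i => by rw [h1]; revert i; decide
  have hB : Rep 0x4060102070308090b0a0005 (f false) := fun i => by rw [h2]; revert i; decide
  refine ⟨?_, fun s t => sharp_two (by norm_num) _ ?_ s t⟩
  · rw [card_closure m12Data (by norm_num) (by norm_num) (by norm_num) (by decide) f hA hB]
    decide
  · exact sharp (m := 5) m12Data (by norm_num) (by decide) (by norm_num) (by decide) f hA hB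

end Vale.Agent.P329.R2.H989
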