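import Vale.Agent.P329.R2.H989.Exam2
import Vale.Agent.P329.R2.H989.Ident

/-! The Mathieu groups of degree 11 and 12: all languages over two suitable letters have
generalized star height at most one -/

namespace Vale.Agent.P329.R2.H989

open Vale.Agent.P329 Vale.Agent.P329.H548 Vale.Agent.P329.R2.H874

theorem all_heights {n : ℕ} (r : Fin n) (f : Bool → Equiv.Perm (Fin n))
    (h : NoCyc (dl (fun a => (f a)⁻¹) r)) (S : Set (Equiv.Perm (Fin n))) :
    ∃ x : GRE Bool, x.height ≤ 1 ∧ x.lang = {w | (w.map f).prod ∈ S} := by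
  obtain ⟨e, he, -, hg⟩ := perm_good f r h
  apply height_one he
  intro u v huv
  change (u.map f).prod ∈ S ↔ (v.map f).prod ∈ S
  rw [hg u v huv]

/-- **The Mathieu groups `M_11` and `M_12`** -/
theorem mathieu :
    (∃ f : Bool → Equiv.Perm (Fin 11),
      Nat.card (Subgroup.closure (Set.range f)) = 7920 ∧
      (∀ s t : Fin 4 → Fin 11, Function.Injective s → Function.Injective t →
        ∃! σ : Equiv.Perm (Fin 11), σ ∈ Subgroup.closure (Set.range f) ∧ ∀ i, σ (s i) = t i) ∧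
      ∀ S : Set (Equiv.Perm (Fin 11)),
        ∃ x : GRE Bool, x.height ≤ 1 ∧ x.lang = {w | (w.map f).prod ∈ S}) ∧
    (∃ f : Bool → Equiv.Perm (Fin 12),
      Nat.card (Subgroup.closure (Set.range f)) = 95040 ∧
      (∀ s t : Fin 5 → Fin 12, Function.Injective s → Function.Injective t →
        ∃! σ : Equiv.Perm (Fin 12), σ ∈ Subgroup.closure (Set.range f) ∧ ∀ i, σ (s i) = t i) ∧
      ∀ S : Set (Equiv.Perm (Fin 12)),
        ∃ x : GRE Bool, x.height ≤ 1 ∧ x.lang = {w | (w.map f).prod ∈ S}) := by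
  constructor
  · obtain ⟨f, h1, h2, h3⟩ := ex_M11
    obtain ⟨h4, h5⟩ := m11_ident f h1 h2
    exact ⟨f, h4, h5, all_heights 0 f h3⟩
  · obtain ⟨f, h1, h2, h3⟩ := ex_M12
    obtain ⟨h4, h5⟩ := m12_ident f h1 h2
    exact ⟨f, h4, h5, all_heights 0 f h3⟩

end Vale.Agent.P329.R2.H989
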