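import Vale.Agent.P329.R2.H989.Exam
import Mathlib.Data.Fintype.CardEmbedding

/-! Orders of permutation groups generated by two letters, in a form the kernel can check -/

namespace Vale.Agent.P329.R2.H989

/-- `p` is the table of the permutation `σ` -/
def Rep {n : ℕ} (p : ℕ) (σ : Equiv.Perm (Fin n)) : Prop := ∀ i : Fin n, dig p i.val = (σ i).val

/-- the number with the bytes `g 0, ..., g (k-1)` -/
def pack (g : ℕ → ℕ) : ℕ → ℕ
  | 0 => 0
  | k + 1 => pack g k + g k * 256 ^ k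

/-- composition of tables -/
def comp (n p q : ℕ) : ℕ := pack (fun i => dig p (dig q i)) n

theorem dig_eq (T i : ℕ) : dig T i = T / 256 ^ i % 256 := by
  rw [dig, Nat.shiftRight_eq_div_pow, pow_mul]
  norm_num

theorem dig_lt (T i : ℕ) : dig T i < 256 := Nat.mod_lt _ (by norm_num)

theorem pack_lt (g : ℕ → ℕ) (hg : ∀ i, g i < 256) : ∀ k, pack g k < 256 ^ k
  | 0 => by simp [pack]
  | k + 1 => by
    have h1 := pack_lt g hg k
    have h2 : g k * 256 ^ k ≤ 255 * 256 ^ k := Nat.mul_le_mul_right _ (Nat.le_of_lt_succ (hg k))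
    rw [pack, pow_succ]
    omega

theorem dig_pack (g : ℕ → ℕ) (hg : ∀ i, g i < 256) : ∀ k i, i < k → dig (pack g k) i = g i
  | 0, i, h => absurd h (Nat.not_lt_zero i)
  | k + 1, i, h => by
    have h1 := pack_lt g hg k
    rcases Nat.lt_succ_iff_lt_or_eq.1 h with h' | rfl
    · have ih := dig_pack g hg k i h'
      rw [dig_eq] at ih ⊢
      rw [pack]
      obtain ⟨d, rfl⟩ : ∃ d, k = i + 1 + d := ⟨k - (i + 1), by omega⟩
      have h2 : g (i + 1 + d) * 256 ^ (i + 1 + d) =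
          256 ^ i * (256 * (g (i + 1 + d) * 256 ^ d)) := by
        rw [pow_add, pow_succ]; ring
      rw [h2, Nat.add_mul_div_left _ _ (by positivity), Nat.add_mul_mod_self_left]
      exact ih
    · rw [dig_eq, pack, Nat.add_mul_div_right _ _ (by positivity), Nat.div_eq_of_lt h1, zero_add]
      exact Nat.mod_eq_of_lt (hg i)

theorem Rep.comp {n p q : ℕ} {σ τ : Equiv.Perm (Fin n)} (hp : Rep p σ) (hq : Rep q τ) :
    Rep (comp n p q) (σ * τ) := by
  intro i
  rw [H989.comp, dig_pack _ (fun i => dig_lt _ _) n i.val i.isLt, hq i, hp (τ i)]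
  rfl

theorem Rep.inj {n p : ℕ} {σ τ : Equiv.Perm (Fin n)} (h : Rep p σ) (h' : Rep p τ) : σ = τ := by
  ext i
  rw [← h i, ← h' i]

/-- table of the identity -/
def idt (n : ℕ) : ℕ := pack (fun i => i % 256) n

theorem rep_idt {n : ℕ} (hn : n ≤ 256) : Rep (idt n) (1 : Equiv.Perm (Fin n)) := by
  intro i
  rw [idt, dig_pack _ (fun i => Nat.mod_lt _ (by norm_num)) n i.val i.isLt,
    Nat.mod_eq_of_lt (lt_of_lt_of_le i.isLt hn)]
  rfl

/-- the table of a word: bits of `m` from the lowest one up to the leading one -/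
def ev (n A B : ℕ) : ℕ → ℕ → ℕ
  | 0, _ => idt n
  | k + 1, m => bif Nat.ble m 1 then idt n else
      comp n (bif Nat.beq (m % 2) 1 then A else B) (ev n A B k (m / 2))

theorem ev_rep {n A B : ℕ} (hn : n ≤ 256) (f : Bool → Equiv.Perm (Fin n)) (hA : Rep A (f true))
    (hB : Rep B (f false)) (G : Subgroup (Equiv.Perm (Fin n))) (h1 : f true ∈ G)
    (h2 : f false ∈ G) : ∀ k m, ∃ σ ∈ G, Rep (ev n A B k m) σ
  | 0, _ => ⟨1, G.one_mem, rep_idt hn⟩
  | k + 1, m => by
    rw [ev]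
    cases Nat.ble m 1 with
    | true => exact ⟨1, G.one_mem, rep_idt hn⟩
    | false =>
      obtain ⟨σ, hσ, hr⟩ := ev_rep hn f hA hB G h1 h2 k (m / 2)
      cases Nat.beq (m % 2) 1 with
      | true => exact ⟨f true * σ, G.mul_mem h1 hσ, hA.comp hr⟩
      | false => exact ⟨f false * σ, G.mul_mem h2 hσ, hB.comp hr⟩

/-- products of one element of each level and one element of `L` -/
def HSet {n : ℕ} (L : List ℕ) : List (List (ℕ × ℕ)) → Set (Equiv.Perm (Fin n))
  | [] => {σ | ∃ p ∈ L, Rep p σ}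
  | lev :: rest => {σ | ∃ e ∈ lev, ∃ α τ : Equiv.Perm (Fin n), Rep e.1 α ∧ τ ∈ HSet L rest ∧
      σ = α * τ}

/-- multiplication by `g` maps the set of products to itself -/
def okc (n : ℕ) (L : List ℕ) : ℕ → List (List (ℕ × ℕ)) → ℕ → Bool
  | _, [], g => L.any fun x => Nat.beq x g
  | j, lev :: rest, g => lev.all fun e => lev.any fun e' =>
      Nat.beq (dig e'.1 j) (dig g (dig e.1 j)) &&
        okc n L (j + 1) rest (comp n e'.2 (comp n g e.1))

theorem okc_mul {n : ℕ} (L : List ℕ)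
    (hL : ∀ p ∈ L, ∀ q ∈ L, comp n p q ∈ L) :
    ∀ (levs : List (List (ℕ × ℕ))) (j g : ℕ) (γ : Equiv.Perm (Fin n)),
      (∀ lev ∈ levs, ∀ e ∈ lev, ∃ α : Equiv.Perm (Fin n), Rep e.1 α ∧ Rep e.2 α⁻¹) →
      Rep g γ → okc n L j levs g = true →
      ∀ τ ∈ HSet (n := n) L levs, γ * τ ∈ HSet (n := n) L levs
  | [], j, g, γ, _, hg, h, τ, hτ => by
    obtain ⟨p, hp, hr⟩ := hτ
    rw [okc, List.any_eq_true] at h
    obtain ⟨x, hx, hxg⟩ := h
    have : x = g := Nat.eq_of_beq_eq_true hxg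
    subst this
    exact ⟨_, hL x hx p hp, hg.comp hr⟩
  | lev :: rest, j, g, γ, hv, hg, h, τ, hτ => by
    obtain ⟨e, he, α, τ', hα, hτ', rfl⟩ := hτ
    rw [okc, List.all_eq_true] at h
    have h1 := h e he
    rw [List.any_eq_true] at h1
    obtain ⟨e', he', h2⟩ := h1
    rw [Bool.and_eq_true] at h2
    obtain ⟨β, hβ, hβ'⟩ := hv lev (List.mem_cons_self ..) e' he'
    have h3 := okc_mul L hL rest (j + 1) _ (β⁻¹ * (γ * α))
      (fun l hl => hv l (List.mem_cons_of_mem _ hl)) (hβ'.comp (hg.comp hα)) h2.2 τ' hτ'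
    refine ⟨e', he', β, _, hβ, h3, ?_⟩
    group

/-- the elements of the later levels and of `L` fix the base point of a level, and the elements of
a level have different images of the base point -/
def fixc (L : List ℕ) : ℕ → List (List (ℕ × ℕ)) → Bool
  | _, [] => true
  | j, lev :: rest => (L.all fun p => Nat.beq (dig p j) j) &&
      ((rest.all fun l => l.all fun e => Nat.beq (dig e.1 j) j) &&
        (decide ((lev.map fun e => dig e.1 j).Nodup) && fixc L (j + 1) rest))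

theorem hset_fix {n : ℕ} (L : List ℕ) (j : ℕ) (hj : j < n)
    (hL : ∀ p ∈ L, dig p j = j) : ∀ levs : List (List (ℕ × ℕ)),
    (∀ lev ∈ levs, ∀ e ∈ lev, dig e.1 j = j) →
    ∀ τ ∈ HSet (n := n) L levs, τ ⟨j, hj⟩ = ⟨j, hj⟩
  | [], _, τ, hτ => by
    obtain ⟨p, hp, hr⟩ := hτ
    apply Fin.ext
    rw [← hr ⟨j, hj⟩]
    exact hL p hp
  | lev :: rest, hv, τ, hτ => by
    obtain ⟨e, he, α, τ', hα, hτ', rfl⟩ := hτ
    have h1 := hset_fix L j hj hL rest (fun l hl => hv l (List.mem_cons_of_mem _ hl)) τ' hτ'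
    rw [Equiv.Perm.mul_apply, h1]
    apply Fin.ext
    rw [← hα ⟨j, hj⟩]
    exact hv lev (List.mem_cons_self ..) e he

/-- the number of products -/
theorem hset_card {n : ℕ} (L : List ℕ) (key : ℕ → ℕ)
    (hkey : ∀ p q (σ : Equiv.Perm (Fin n)), Rep p σ → Rep q σ → key p = key q)
    (hLk : (L.map key).Nodup) (hLr : ∀ p ∈ L, ∃ σ : Equiv.Perm (Fin n), Rep p σ) :
    ∀ (levs : List (List (ℕ × ℕ))) (j : ℕ), j + levs.length ≤ n →
    (∀ lev ∈ levs, ∀ e ∈ lev, ∃ α : Equiv.Perm (Fin n), Rep e.1 α ∧ Rep e.2 α⁻¹) →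
    fixc L j levs = true →
    (HSet (n := n) L levs).ncard = (levs.map List.length).prod * L.length
  | [], j, _, _, _ => by
    classical
    simp only [List.map_nil, List.prod_nil, one_mul]
    choose! s hs using hLr
    have h1 : HSet (n := n) L [] = ((L.map s).toFinset : Set (Equiv.Perm (Fin n))) := by
      ext σ
      simp only [HSet, Set.mem_ofPred_eq, List.coe_toFinset, List.mem_map]
      constructor
      · rintro ⟨p, hp, hr⟩
        exact ⟨p, hp, (hs p hp).inj hr⟩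
      · rintro ⟨p, hp, rfl⟩
        exact ⟨p, hp, hs p hp⟩
    have h2 : (L.map s).Nodup := by
      have hL : L.Nodup := List.Nodup.of_map _ hLk
      refine (List.nodup_map_iff_inj_on hL).2 ?_
      intro p hp q hq hpq
      have h3 := hkey p q (s p) (hs p hp) (hpq ▸ hs q hq)
      exact (List.nodup_map_iff_inj_on hL).1 hLk p hp q hq h3
    rw [h1, Set.ncard_coe_finset, List.toFinset_card_of_nodup h2, List.length_map]
  | lev :: rest, j, hjn, hv, hf => by
    classical
    rw [fixc, Bool.and_eq_true, Bool.and_eq_true, Bool.and_eq_true] at hf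
    obtain ⟨hf1, hf2, hf3, hf4⟩ := hf
    have hj : j < n := by rw [List.length_cons] at hjn; omega
    have ih := hset_card L key hkey hLk hLr rest (j + 1)
      (by rw [List.length_cons] at hjn; omega) (fun l hl => hv l (List.mem_cons_of_mem _ hl)) hf4
    have hfix := hset_fix L j hj
      (fun p hp => Nat.eq_of_beq_eq_true (List.all_eq_true.1 hf1 p hp)) rest
      (fun l hl e he => Nat.eq_of_beq_eq_true
        (List.all_eq_true.1 (List.all_eq_true.1 hf2 l hl) e he))
    have hnd : (lev.map fun e => dig e.1 j).Nodup := of_decide_eq_true hf3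
    have hv0 := hv lev (List.mem_cons_self ..)
    have hv1 : ∀ e ∈ lev, ∃ α : Equiv.Perm (Fin n), Rep e.1 α := fun e he => by
      obtain ⟨α, h, -⟩ := hv0 e he
      exact ⟨α, h⟩
    choose! s hs using hv1
    have hinj : Set.InjOn (fun x : Equiv.Perm (Fin n) × Equiv.Perm (Fin n) => x.1 * x.2)
        (((lev.map s).toFinset : Set (Equiv.Perm (Fin n))) ×ˢ HSet (n := n) L rest) := by
      rintro ⟨a, t⟩ ⟨ha, ht⟩ ⟨a', t'⟩ ⟨ha', ht'⟩ h
      simp only [List.coe_toFinset, List.mem_map, Set.mem_ofPred_eq] at ha ha'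
      obtain ⟨e, he, rfl⟩ := ha
      obtain ⟨e', he', rfl⟩ := ha'
      simp only at h ht ht'
      have h1 := congrArg (fun σ : Equiv.Perm (Fin n) => σ ⟨j, hj⟩) h
      simp only [Equiv.Perm.mul_apply, hfix t ht, hfix t' ht'] at h1
      have h2 := congrArg Fin.val h1
      rw [← hs e he ⟨j, hj⟩, ← hs e' he' ⟨j, hj⟩] at h2
      have h3 : e = e' := (List.nodup_map_iff_inj_on (List.Nodup.of_map _ hnd)).1 hnd e he e' he' h2
      subst h3
      rw [mul_right_inj] at h
      rw [h]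
    have himg : HSet (n := n) L (lev :: rest) =
        (fun x : Equiv.Perm (Fin n) × Equiv.Perm (Fin n) => x.1 * x.2) ''
        (((lev.map s).toFinset : Set (Equiv.Perm (Fin n))) ×ˢ HSet (n := n) L rest) := by
      ext σ
      simp only [HSet, Set.mem_ofPred_eq, Set.mem_image, Set.mem_prod, List.coe_toFinset,
        List.mem_map]
      constructor
      · rintro ⟨e, he, α, τ, hα, hτ, rfl⟩
        exact ⟨(α, τ), ⟨⟨e, he, (hs e he).inj hα⟩, hτ⟩, rfl⟩
      · rintro ⟨⟨α, τ⟩, ⟨⟨e, he, hα⟩, hτ⟩, rfl⟩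
        simp only at hα hτ
        subst hα
        exact ⟨e, he, _, τ, hs e he, hτ, rfl⟩
    have hnd2 : (lev.map s).Nodup := by
      refine (List.nodup_map_iff_inj_on (List.Nodup.of_map _ hnd)).2 ?_
      intro e he e' he' h
      refine (List.nodup_map_iff_inj_on (List.Nodup.of_map _ hnd)).1 hnd e he e' he' ?_
      rw [hs e he ⟨j, hj⟩, hs e' he' ⟨j, hj⟩, h]
    rw [himg, hinj.ncard_image, Set.ncard_prod, Set.ncard_coe_finset,
      List.toFinset_card_of_nodup hnd2, List.length_map, ih, List.map_cons, List.prod_cons]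
    ring

/-- everything which the kernel has to check -/
structure Data (n A B k : ℕ) (levs : List (List (ℕ × ℕ × ℕ × ℕ))) (L : List (ℕ × ℕ))
    (i₁ i₂ : ℕ) : Prop where
  val : (levs.all fun lev => lev.all fun e => Nat.beq (ev n A B k e.2.2.1) e.1 &&
    (Nat.beq (ev n A B k e.2.2.2) e.2.1 && Nat.beq (comp n e.1 e.2.1) (idt n))) = true
  valL : (L.all fun e => Nat.beq (ev n A B k e.2) e.1) = true
  closed : (L.all fun p => L.all fun q => L.any fun x => Nat.beq x.1 (comp n p.1 q.1)) = true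
  okA : okc n (L.map Prod.fst) 0 (levs.map fun lev => lev.map fun e => (e.1, e.2.1)) A = true
  okB : okc n (L.map Prod.fst) 0 (levs.map fun lev => lev.map fun e => (e.1, e.2.1)) B = true
  fix : fixc (L.map Prod.fst) 0 (levs.map fun lev => lev.map fun e => (e.1, e.2.1)) = true
  key : (L.map fun e => dig e.1 i₁ + 256 * dig e.1 i₂).Nodup
  one : ((levs.all fun lev => lev.any fun e => Nat.beq e.1 (idt n)) &&
    L.any fun e => Nat.beq e.1 (idt n)) = true

theorem hset_one {n : ℕ} (hn : n ≤ 256) (L : List ℕ) (hL : idt n ∈ L) :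
    ∀ levs : List (List (ℕ × ℕ)), (∀ lev ∈ levs, ∃ e ∈ lev, e.1 = idt n) →
    (1 : Equiv.Perm (Fin n)) ∈ HSet (n := n) L levs
  | [], _ => ⟨_, hL, rep_idt hn⟩
  | lev :: rest, h => by
    obtain ⟨e, he, h1⟩ := h lev (List.mem_cons_self ..)
    refine ⟨e, he, 1, 1, ?_, hset_one hn L hL rest fun l hl => h l (List.mem_cons_of_mem _ hl),
      (mul_one _).symm⟩
    rw [h1]; exact rep_idt hn

theorem hset_sub {n : ℕ} (G : Subgroup (Equiv.Perm (Fin n))) (L : List ℕ)
    (hL : ∀ p ∈ L, ∀ σ : Equiv.Perm (Fin n), Rep p σ → σ ∈ G) :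
    ∀ levs : List (List (ℕ × ℕ)),
    (∀ lev ∈ levs, ∀ e ∈ lev, ∀ σ : Equiv.Perm (Fin n), Rep e.1 σ → σ ∈ G) →
    ∀ σ ∈ HSet (n := n) L levs, σ ∈ G
  | [], _, σ, ⟨p, hp, hr⟩ => hL p hp σ hr
  | lev :: rest, h, σ, ⟨e, he, α, τ, hα, hτ, hσ⟩ => by
    rw [hσ]
    exact G.mul_mem (h lev (List.mem_cons_self ..) e he α hα)
      (hset_sub G L hL rest (fun l hl => h l (List.mem_cons_of_mem _ hl)) τ hτ)

/-- the generated group consists of the products -/
theorem closure_facts {n A B k : ℕ} {levs : List (List (ℕ × ℕ × ℕ × ℕ))} {L : List (ℕ × ℕ)}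
    {i₁ i₂ : ℕ} (D : Data n A B k levs L i₁ i₂) (hn : n ≤ 256)
    (f : Bool → Equiv.Perm (Fin n)) (hA : Rep A (f true)) (hB : Rep B (f false)) :
    (Subgroup.closure (Set.range f) : Set (Equiv.Perm (Fin n))) =
      HSet (n := n) (L.map Prod.fst) (levs.map fun lev => lev.map fun e => (e.1, e.2.1)) ∧
    (∀ lev ∈ levs.map fun lev => lev.map fun e => (e.1, e.2.1), ∀ e ∈ lev,
      ∃ α : Equiv.Perm (Fin n), Rep e.1 α ∧ Rep e.2 α⁻¹) ∧
    (∀ p ∈ L.map Prod.fst, ∃ σ : Equiv.Perm (Fin n), Rep p σ) := by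
  set G := Subgroup.closure (Set.range f) with hG
  have g1 : f true ∈ G := Subgroup.subset_closure ⟨true, rfl⟩
  have g2 : f false ∈ G := Subgroup.subset_closure ⟨false, rfl⟩
  set levs' := levs.map fun lev => lev.map fun e => (e.1, e.2.1) with hlevs
  set L' := L.map Prod.fst with hL'
  -- elements of the levels
  have hlev : ∀ lev ∈ levs', ∀ e ∈ lev, ∃ α ∈ G, Rep e.1 α ∧ Rep e.2 α⁻¹ := by
    intro lev hl e he
    obtain ⟨lev0, hl0, rfl⟩ := List.mem_map.1 hl
    obtain ⟨e0, he0, rfl⟩ := List.mem_map.1 he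
    have h0 := List.all_eq_true.1 (List.all_eq_true.1 D.val lev0 hl0) e0 he0
    rw [Bool.and_eq_true, Bool.and_eq_true] at h0
    obtain ⟨ha, hb, hc⟩ := h0
    have ha := Nat.eq_of_beq_eq_true ha
    have hb := Nat.eq_of_beq_eq_true hb
    have hc := Nat.eq_of_beq_eq_true hc
    obtain ⟨σ, hσ, hr⟩ := ev_rep hn f hA hB G g1 g2 k e0.2.2.1
    obtain ⟨τ, hτ, hs⟩ := ev_rep hn f hA hB G g1 g2 k e0.2.2.2
    rw [ha] at hr
    rw [hb] at hs
    have h3 := hr.comp hs
    rw [hc] at h3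
    have h4 : σ * τ = 1 := h3.inj (rep_idt hn)
    refine ⟨σ, hσ, hr, ?_⟩
    rw [inv_eq_of_mul_eq_one_right h4]
    exact hs
  have hlev' : ∀ lev ∈ levs', ∀ e ∈ lev, ∃ α : Equiv.Perm (Fin n), Rep e.1 α ∧ Rep e.2 α⁻¹ := by
    intro lev hl e he
    obtain ⟨α, -, h⟩ := hlev lev hl e he
    exact ⟨α, h⟩
  -- elements of the bottom list
  have hLr : ∀ p ∈ L', ∃ σ ∈ G, Rep p σ := by
    intro p hp
    obtain ⟨e, he, rfl⟩ := List.mem_map.1 hp
    have h0 := Nat.eq_of_beq_eq_true (List.all_eq_true.1 D.valL e he)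
    obtain ⟨σ, hσ, hr⟩ := ev_rep hn f hA hB G g1 g2 k e.2
    rw [h0] at hr
    exact ⟨σ, hσ, hr⟩
  have hLc : ∀ p ∈ L', ∀ q ∈ L', comp n p q ∈ L' := by
    intro p hp q hq
    obtain ⟨e, he, rfl⟩ := List.mem_map.1 hp
    obtain ⟨e', he', rfl⟩ := List.mem_map.1 hq
    obtain ⟨x, hx, hx'⟩ := List.any_eq_true.1
      (List.all_eq_true.1 (List.all_eq_true.1 D.closed e he) e' he')
    rw [← Nat.eq_of_beq_eq_true hx']
    exact List.mem_map.2 ⟨x, hx, rfl⟩
  have hone := D.one
  rw [Bool.and_eq_true] at hone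
  have h1mem : (1 : Equiv.Perm (Fin n)) ∈ HSet (n := n) L' levs' := by
    apply hset_one hn
    · obtain ⟨x, hx, hx'⟩ := List.any_eq_true.1 hone.2
      rw [← Nat.eq_of_beq_eq_true hx']
      exact List.mem_map.2 ⟨x, hx, rfl⟩
    · intro lev hl
      obtain ⟨lev0, hl0, rfl⟩ := List.mem_map.1 hl
      obtain ⟨x, hx, hx'⟩ := List.any_eq_true.1 (List.all_eq_true.1 hone.1 lev0 hl0)
      exact ⟨_, List.mem_map.2 ⟨x, hx, rfl⟩, Nat.eq_of_beq_eq_true hx'⟩
  have hmul : ∀ x ∈ G, ∀ τ ∈ HSet (n := n) L' levs', x * τ ∈ HSet (n := n) L' levs' := by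
    intro x hx
    induction hx using Subgroup.closure_induction with
    | mem x hx =>
      obtain ⟨b, rfl⟩ := hx
      cases b with
      | true => exact okc_mul L' hLc levs' 0 A _ hlev' hA D.okA
      | false => exact okc_mul L' hLc levs' 0 B _ hlev' hB D.okB
    | one => intro τ hτ; rwa [one_mul]
    | mul x y _ _ hx hy =>
      intro τ hτ
      rw [mul_assoc]
      exact hx _ (hy _ hτ)
    | inv x _ hx =>
      intro τ hτ
      have hpow : ∀ m : ℕ, x ^ m * τ ∈ HSet (n := n) L' levs' := by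
        intro m
        induction m with
        | zero => rwa [pow_zero, one_mul]
        | succ m ih => rw [pow_succ', mul_assoc]; exact hx _ ih
      have h5 : x⁻¹ = x ^ (orderOf x - 1) := by
        have h6 : 0 < orderOf x := orderOf_pos x
        rw [eq_comm, ← mul_right_inj x, mul_inv_cancel, ← pow_succ']
        have : orderOf x - 1 + 1 = orderOf x := by omega
        rw [this, pow_orderOf_eq_one]
      rw [h5]
      exact hpow _
  refine ⟨?_, hlev', fun p hp => (by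
    obtain ⟨σ, -, h⟩ := hLr p hp
    exact ⟨σ, h⟩)⟩
  · apply Set.Subset.antisymm
    · intro x hx
      have := hmul x hx 1 h1mem
      rwa [mul_one] at this
    · intro x hx
      refine hset_sub G L' ?_ levs' ?_ x hx
      · intro p hp σ hσ
        obtain ⟨τ, hτ, hr⟩ := hLr p hp
        rw [hσ.inj hr]; exact hτ
      · intro lev hl e he σ hσ
        obtain ⟨τ, hτ, hr, -⟩ := hlev lev hl e he
        rw [hσ.inj hr]; exact hτ

/-- **The order of a group of permutations generated by two letters.** -/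
theorem card_closure {n A B k : ℕ} {levs : List (List (ℕ × ℕ × ℕ × ℕ))} {L : List (ℕ × ℕ)}
    {i₁ i₂ : ℕ} (D : Data n A B k levs L i₁ i₂) (hn : n ≤ 256) (h₁ : i₁ < n) (h₂ : i₂ < n)
    (hlen : levs.length ≤ n) (f : Bool → Equiv.Perm (Fin n)) (hA : Rep A (f true))
    (hB : Rep B (f false)) :
    Nat.card (Subgroup.closure (Set.range f)) = (levs.map List.length).prod * L.length := by
  obtain ⟨hset, hlev', hLr⟩ := closure_facts D hn f hA hB
  have hcard := hset_card (n := n) (L.map Prod.fst) (fun p => dig p i₁ + 256 * dig p i₂)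
    (by
      intro p q σ hp hq
      have e1 : dig p i₁ = dig q i₁ := (hp ⟨i₁, h₁⟩).trans (hq ⟨i₁, h₁⟩).symm
      have e2 : dig p i₂ = dig q i₂ := (hp ⟨i₂, h₂⟩).trans (hq ⟨i₂, h₂⟩).symm
      simp only [e1, e2])
    (by
      rw [List.map_map]
      exact D.key)
    hLr _ 0 (by rw [List.length_map]; omega) hlev' D.fix
  have h7 : Nat.card (Subgroup.closure (Set.range f)) = (HSet (n := n) (L.map Prod.fst)
      (levs.map fun lev => lev.map fun e => (e.1, e.2.1))).ncard := by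
    rw [← hset]
    exact (Nat.card_coe_set_eq _).symm ▸ rfl
  rw [h7, hcard, List.length_map, List.map_map]
  congr 2
  apply List.map_congr_left
  intro lev _
  simp

/-- a product is determined by the images of the base points -/
theorem hset_inj {n : ℕ} (L : List ℕ) {i₁ i₂ : ℕ} (h₁ : i₁ < n) (h₂ : i₂ < n)
    (hLk : (L.map fun p => dig p i₁ + 256 * dig p i₂).Nodup) :
    ∀ (levs : List (List (ℕ × ℕ))) (j : ℕ), j + levs.length ≤ n →
    fixc L j levs = true → ∀ σ ∈ HSet (n := n) L levs, ∀ σ' ∈ HSet (n := n) L levs,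
    (∀ i : Fin n, j ≤ i.val → i.val < j + levs.length → σ i = σ' i) →
    σ ⟨i₁, h₁⟩ = σ' ⟨i₁, h₁⟩ → σ ⟨i₂, h₂⟩ = σ' ⟨i₂, h₂⟩ → σ = σ'
  | [], j, _, _, σ, ⟨p, hp, hr⟩, σ', ⟨q, hq, hr'⟩, _, e1, e2 => by
    have h3 : p = q := by
      refine (List.nodup_map_iff_inj_on (List.Nodup.of_map _ hLk)).1 hLk p hp q hq ?_
      have a1 := hr ⟨i₁, h₁⟩
      have a2 := hr ⟨i₂, h₂⟩
      have b1 := hr' ⟨i₁, h₁⟩
      have b2 := hr' ⟨i₂, h₂⟩
      simp only at a1 a2 b1 b2
      rw [a1, a2, b1, b2, e1, e2]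
    subst h3
    exact hr.inj hr'
  | lev :: rest, j, hjn, hf, σ, ⟨e, he, α, τ, hα, hτ, hσ⟩, σ', ⟨e', he', α', τ', hα', hτ', hσ'⟩,
      hj', e1, e2 => by
    subst hσ
    subst hσ'
    rw [fixc, Bool.and_eq_true, Bool.and_eq_true, Bool.and_eq_true] at hf
    obtain ⟨hf1, hf2, hf3, hf4⟩ := hf
    have hj : j < n := by rw [List.length_cons] at hjn; omega
    have hfix := hset_fix L j hj
      (fun p hp => Nat.eq_of_beq_eq_true (List.all_eq_true.1 hf1 p hp)) rest
      (fun l hl e he => Nat.eq_of_beq_eq_true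
        (List.all_eq_true.1 (List.all_eq_true.1 hf2 l hl) e he))
    have hnd : (lev.map fun e => dig e.1 j).Nodup := of_decide_eq_true hf3
    have h3 := hj' ⟨j, hj⟩ le_rfl (by rw [List.length_cons]; simp only; omega)
    rw [Equiv.Perm.mul_apply, Equiv.Perm.mul_apply, hfix τ hτ, hfix τ' hτ'] at h3
    have h4 : e = e' := by
      refine (List.nodup_map_iff_inj_on (List.Nodup.of_map _ hnd)).1 hnd e he e' he' ?_
      have a1 := hα ⟨j, hj⟩
      have a2 := hα' ⟨j, hj⟩
      simp only at a1 a2 ⊢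
      rw [a1, a2, h3]
    subst h4
    have h5 : α = α' := hα.inj hα'
    subst h5
    have h6 := hset_inj L h₁ h₂ hLk rest (j + 1) (by rw [List.length_cons] at hjn; omega) hf4
      τ hτ τ' hτ' (by
        intro i hi1 hi2
        have := hj' i (by omega) (by rw [List.length_cons]; omega)
        rw [Equiv.Perm.mul_apply, Equiv.Perm.mul_apply] at this
        exact α.injective this)
      (by rw [Equiv.Perm.mul_apply, Equiv.Perm.mul_apply] at e1; exact α.injective e1)
      (by rw [Equiv.Perm.mul_apply, Equiv.Perm.mul_apply] at e2; exact α.injective e2)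
    rw [h6]

/-- **Sharp transitivity on tuples.** -/
theorem sharp {n A B k : ℕ} {levs : List (List (ℕ × ℕ × ℕ × ℕ))} {L : List (ℕ × ℕ)} {m : ℕ}
    (D : Data n A B k levs L levs.length (levs.length + 1)) (hn : n ≤ 256)
    (hm : m = levs.length + 2) (hmn : m ≤ n)
    (hcard : (levs.map List.length).prod * L.length = n.descFactorial m)
    (f : Bool → Equiv.Perm (Fin n)) (hA : Rep A (f true)) (hB : Rep B (f false))
    (t : Fin m → Fin n) (ht : Function.Injective t) :
    ∃! σ : Equiv.Perm (Fin n), σ ∈ Subgroup.closure (Set.range f) ∧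
      ∀ i : Fin m, σ (Fin.castLE hmn i) = t i := by
  classical
  have hc := card_closure D hn (by omega) (by omega) (by omega) f hA hB
  obtain ⟨hset, hlev', hLr⟩ := closure_facts D hn f hA hB
  set G := Subgroup.closure (Set.range f) with hG
  have hinj0 : ∀ σ ∈ G, ∀ σ' ∈ G, (∀ i : Fin m, σ (Fin.castLE hmn i) = σ' (Fin.castLE hmn i)) →
      σ = σ' := by
    intro σ hσ σ' hσ' h
    have key : ∀ (i : ℕ) (hi : i < m), σ ⟨i, lt_of_lt_of_le hi hmn⟩ =
        σ' ⟨i, lt_of_lt_of_le hi hmn⟩ := fun i hi => h ⟨i, hi⟩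
    have hs1 : σ ∈ (G : Set (Equiv.Perm (Fin n))) := hσ
    have hs2 : σ' ∈ (G : Set (Equiv.Perm (Fin n))) := hσ'
    rw [hset] at hs1 hs2
    refine hset_inj (n := n) (L.map Prod.fst) (i₁ := levs.length) (i₂ := levs.length + 1)
      (by omega) (by omega) (by rw [List.map_map]; exact D.key) _ 0
      (by rw [List.length_map]; omega) D.fix σ hs1 σ' hs2 ?_ (key _ (by omega)) (key _ (by omega))
    intro i _ hi
    rw [List.length_map] at hi
    exact key i.val (by omega)
  let φ : G → (Fin m ↪ Fin n) := fun σ =>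
    ⟨fun i => σ.1 (Fin.castLE hmn i), fun i j hij => by
      have := σ.1.injective hij
      exact Fin.castLE_injective hmn this⟩
  have hφ : Function.Injective φ := by
    intro σ σ' h
    apply Subtype.ext
    apply hinj0 σ.1 σ.2 σ'.1 σ'.2
    intro i
    exact congrArg (fun g : Fin m ↪ Fin n => g i) h
  have hb : Function.Bijective φ := by
    refine (Fintype.bijective_iff_injective_and_card φ).2 ⟨hφ, ?_⟩
    rw [← Nat.card_eq_fintype_card, hc, hcard, Fintype.card_embedding_eq, Fintype.card_fin,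
      Fintype.card_fin]
  obtain ⟨σ, hσ⟩ := hb.2 ⟨t, ht⟩
  refine ⟨σ.1, ⟨σ.2, fun i => ?_⟩, ?_⟩
  · exact congrArg (fun g : Fin m ↪ Fin n => g i) hσ
  · rintro σ' ⟨h1, h2⟩
    apply hinj0 σ' h1 σ.1 σ.2
    intro i
    rw [h2 i]
    exact (congrArg (fun g : Fin m ↪ Fin n => g i) hσ).symm

/-- Sharp transitivity, for two tuples. -/
theorem sharp_two {n m : ℕ} (hmn : m ≤ n) (G : Subgroup (Equiv.Perm (Fin n)))
    (h : ∀ t : Fin m → Fin n, Function.Injective t → ∃! σ : Equiv.Perm (Fin n), σ ∈ G ∧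
      ∀ i : Fin m, σ (Fin.castLE hmn i) = t i)
    (s t : Fin m → Fin n) (hs : Function.Injective s) (ht : Function.Injective t) :
    ∃! σ : Equiv.Perm (Fin n), σ ∈ G ∧ ∀ i : Fin m, σ (s i) = t i := by
  obtain ⟨ρ, ⟨hρ, hρ'⟩, -⟩ := h s hs
  obtain ⟨θ, ⟨hθ, hθ'⟩, hu⟩ := h t ht
  refine ⟨θ * ρ⁻¹, ⟨G.mul_mem hθ (G.inv_mem hρ), fun i => ?_⟩, ?_⟩
  · rw [Equiv.Perm.mul_apply, ← hρ' i]
    change θ (ρ.symm (ρ _)) = _
    rw [Equiv.symm_apply_apply, hθ']
  · rintro σ ⟨h1, h2⟩
    have h3 := hu (σ * ρ) ⟨G.mul_mem h1 hρ, fun i => by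
      rw [Equiv.Perm.mul_apply, hρ' i, h2 i]⟩
    rw [← h3, mul_inv_cancel_right]

end Vale.Agent.P329.R2.H989
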